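import Vale.Agent.P207.N4.H517.AngD
import Vale.Agent.P207.N4.H534.Clock

/-!
# P207, theorem P: the rates of the angle, clock version

`tl_rate_clk`, `tl_back_clk` : if `exp ((a + sl) σ) ≤ Dt ≤ exp ((b - sl) σ)` for one `T > 0`, with the
clock `σ = sg L c T x`, then the angle between a geodesic and the geodesics from another end point has
the rates `exp (-(a σ))`, `exp (b σ)`.
-/

open Set Filter Topology Metric
open scoped ContDiff

set_option linter.unusedSectionVars false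

noncomputable section

namespace Vale.Agent.P207.N4.H106.AngC

open Vale.Agent.P207.N3 Vale.Agent.P207.N4.H832 Vale.Agent.P207.N4.H517

/-! ### many blocks -/

/-- forward -/
theorem fwd_clk {W S : ℝ → ℝ} {a b T S₀ C₀ c₁ : ℝ} (hT : 0 < T) (hS : 0 ≤ S₀) (ha : 0 ≤ a)
    (hb : 0 ≤ b) (hC : 1 ≤ C₀) (hW : ∀ s, 0 ≤ W s) (hS0 : S 0 = 0)
    (hm : ∀ s t, s ≤ t → S s ≤ S t) (hc : ∀ s t, s ≤ t → S t - S s ≤ c₁ * (t - s))
    (h1 : ∀ s, S₀ ≤ s → W (s + T) ≤ Real.exp (-(a * (S (s + T) - S s))) * W s ∧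
      W s ≤ Real.exp (b * (S (s + T) - S s)) * W (s + T))
    (h2 : ∀ s, 0 ≤ s → ∀ r, 0 ≤ r → r ≤ T + S₀ → W (s + r) ≤ C₀ * W s ∧ W s ≤ C₀ * W (s + r)) :
    ∀ t, 0 ≤ t →
      W t ≤ C₀ * C₀ * Real.exp (a * (c₁ * (T + S₀))) * Real.exp (-(a * S t)) * W 0 ∧
      W 0 ≤ C₀ * C₀ * Real.exp (b * S t) * W t := by
  have hc1 : 0 ≤ c₁ := by
    have h3 := hm 0 1 zero_le_one
    have h4 := hc 0 1 zero_le_one
    linarith
  have hn : ∀ n : ℕ, W (S₀ + n * T) ≤ Real.exp (-(a * (S (S₀ + n * T) - S S₀))) * W S₀ ∧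
      W S₀ ≤ Real.exp (b * (S (S₀ + n * T) - S S₀)) * W (S₀ + n * T) := by
    intro n
    induction n with
    | zero => simp
    | succ n ih =>
      have h3 : S₀ ≤ S₀ + n * T := by
        have : 0 ≤ (n : ℝ) * T := by positivity
        linarith
      obtain ⟨h4, h5⟩ := h1 _ h3
      have e1 : S₀ + ((n + 1 : ℕ) : ℝ) * T = S₀ + n * T + T := by push_cast; ring
      rw [e1]
      set t' : ℝ := S₀ + n * T with ht'
      have e2 : Real.exp (-(a * (S (t' + T) - S S₀))) =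
          Real.exp (-(a * (S (t' + T) - S t'))) * Real.exp (-(a * (S t' - S S₀))) := by
        rw [← Real.exp_add]; congr 1; ring
      have e3 : Real.exp (b * (S (t' + T) - S S₀)) =
          Real.exp (b * (S t' - S S₀)) * Real.exp (b * (S (t' + T) - S t')) := by
        rw [← Real.exp_add]; congr 1; ring
      rw [e2, e3]
      refine ⟨h4.trans ?_, ih.2.trans ?_⟩
      · rw [mul_assoc]
        exact mul_le_mul_of_nonneg_left ih.1 (Real.exp_pos _).le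
      · rw [mul_assoc]
        exact mul_le_mul_of_nonneg_left h5 (Real.exp_pos _).le
  intro t ht
  have hW0 := hW 0
  have hWt := hW t
  have hSt : 0 ≤ S t := by rw [← hS0]; exact hm 0 t ht
  have hSu : S t ≤ c₁ * t := by
    have := hc 0 t ht
    rw [hS0] at this
    linarith
  rcases le_total t S₀ with hts | hts
  · obtain ⟨h3, h4⟩ := h2 0 le_rfl t ht (by linarith)
    rw [zero_add] at h3 h4
    have e1 : 1 ≤ Real.exp (a * (c₁ * (T + S₀))) * Real.exp (-(a * S t)) := by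
      rw [← Real.exp_add]
      refine Real.one_le_exp ?_
      have : S t ≤ c₁ * (T + S₀) := hSu.trans (mul_le_mul_of_nonneg_left (by linarith) hc1)
      nlinarith
    have e2 : 1 ≤ Real.exp (b * S t) := Real.one_le_exp (by positivity)
    constructor
    · calc W t ≤ C₀ * W 0 := h3
        _ = C₀ * 1 * 1 * W 0 := by ring
        _ ≤ C₀ * C₀ * (Real.exp (a * (c₁ * (T + S₀))) * Real.exp (-(a * S t))) * W 0 := by gcongr
        _ = _ := by ring
    · calc W 0 ≤ C₀ * W t := h4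
        _ = C₀ * 1 * 1 * W t := by ring
        _ ≤ C₀ * C₀ * Real.exp (b * S t) * W t := by gcongr
  · set n : ℕ := ⌊(t - S₀) / T⌋₊ with hndef
    have hq : 0 ≤ (t - S₀) / T := div_nonneg (by linarith) hT.le
    have h3 : (n : ℝ) * T ≤ t - S₀ := by
      have := Nat.floor_le hq
      rwa [← hndef, le_div_iff₀ hT] at this
    have h4 : t - S₀ < (n : ℝ) * T + T := by
      have := Nat.lt_floor_add_one ((t - S₀) / T)
      rw [← hndef, div_lt_iff₀ hT] at this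
      linarith
    have hnT : 0 ≤ (n : ℝ) * T := by positivity
    obtain ⟨h5, h6⟩ := hn n
    obtain ⟨h7, h8⟩ := h2 0 le_rfl S₀ hS (by linarith)
    rw [zero_add] at h7 h8
    obtain ⟨h9, h10⟩ := h2 (S₀ + n * T) (by linarith) (t - (S₀ + n * T)) (by linarith)
      (by linarith)
    rw [add_sub_cancel] at h9 h10
    set t' : ℝ := S₀ + n * T with ht'
    have ht't : t' ≤ t := by linarith
    have g1 : S t - S t' ≤ c₁ * T := (hc t' t ht't).trans
      (mul_le_mul_of_nonneg_left (by linarith) hc1)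
    have g2 : S S₀ ≤ c₁ * S₀ := by
      have := hc 0 S₀ hS
      rw [hS0] at this
      linarith
    have g3 : S t' ≤ S t := hm t' t ht't
    have g4 : 0 ≤ S S₀ := by rw [← hS0]; exact hm 0 S₀ hS
    constructor
    · calc W t ≤ C₀ * W t' := h9
        _ ≤ C₀ * (Real.exp (-(a * (S t' - S S₀))) * (C₀ * W 0)) := by
            gcongr
            exact h5.trans (mul_le_mul_of_nonneg_left h7 (Real.exp_pos _).le)
        _ = C₀ * C₀ * Real.exp (-(a * (S t' - S S₀))) * W 0 := by ring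
        _ ≤ C₀ * C₀ * (Real.exp (a * (c₁ * (T + S₀))) * Real.exp (-(a * S t))) * W 0 := by
            have h11 : Real.exp (-(a * (S t' - S S₀))) ≤
                Real.exp (a * (c₁ * (T + S₀))) * Real.exp (-(a * S t)) := by
              rw [← Real.exp_add]
              refine Real.exp_le_exp.2 ?_
              have : S t - S t' + S S₀ ≤ c₁ * (T + S₀) := by linarith
              nlinarith
            gcongr
        _ = _ := by ring
    · calc W 0 ≤ C₀ * W S₀ := h8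
        _ ≤ C₀ * (Real.exp (b * (S t' - S S₀)) * (C₀ * W t)) := by
            gcongr
            exact h6.trans (mul_le_mul_of_nonneg_left h10 (Real.exp_pos _).le)
        _ = C₀ * C₀ * Real.exp (b * (S t' - S S₀)) * W t := by ring
        _ ≤ C₀ * C₀ * Real.exp (b * S t) * W t := by
            have h11 : Real.exp (b * (S t' - S S₀)) ≤ Real.exp (b * S t) :=
              Real.exp_le_exp.2 (mul_le_mul_of_nonneg_left (by linarith) hb)
            gcongr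

/-- backward: `W s` is the size at the time `-s`, `G s` says that the side at the time `-s` is the
right one, `R s` is the clock -/
theorem bwd_clk {W R : ℝ → ℝ} {G : ℝ → Prop} {b b₀ T δ : ℝ} (hT : 0 < T) (hb : 0 ≤ b)
    (hb₀ : 0 ≤ b₀) (hδ : 0 < δ) (hδ1 : δ ≤ 1) (hW : ∀ s, 0 ≤ W s) (hR0 : R 0 = 0)
    (hm : ∀ s t, s ≤ t → R s ≤ R t)
    (h1 : ∀ s, 0 ≤ s → G s → ∀ r, 0 ≤ r → r ≤ T → Real.exp (b₀ * r) * W s < 1 →
      G (s + r) ∧ W (s + r) ≤ 2 * Real.exp (b₀ * r) * W s)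
    (h2 : ∀ s, 0 ≤ s → (∀ r, 0 ≤ r → r ≤ T → G (s + r) ∧ W (s + r) ≤ δ) →
      W (s + T) ≤ Real.exp (b * (R (s + T) - R s)) * W s) (hG : G 0) :
    ∀ s, 0 ≤ s → Real.exp (b * R s) * W 0 ≤ δ / (2 * Real.exp (b₀ * T)) →
      G s ∧ W s ≤ 2 * Real.exp (b₀ * T) * (Real.exp (b * R s) * W 0) := by
  set δ₁ : ℝ := δ / (2 * Real.exp (b₀ * T)) with hδ₁
  have hE := Real.exp_pos (b₀ * T)
  have hδ₁0 : 0 < δ₁ := by positivity
  have hδ₁' : 2 * Real.exp (b₀ * T) * δ₁ = δ := by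
    rw [hδ₁]; field_simp
  -- small steps from a small point
  have hs1 : ∀ s, 0 ≤ s → G s → W s ≤ δ₁ → ∀ r, 0 ≤ r → r ≤ T → G (s + r) ∧
      W (s + r) ≤ 2 * Real.exp (b₀ * T) * W s ∧ W (s + r) ≤ δ := by
    intro s hs hGs hWs r hr hrT
    have h3 : Real.exp (b₀ * r) ≤ Real.exp (b₀ * T) :=
      Real.exp_le_exp.2 (mul_le_mul_of_nonneg_left hrT hb₀)
    have h4 : Real.exp (b₀ * r) * W s ≤ Real.exp (b₀ * T) * δ₁ :=
      mul_le_mul h3 hWs (hW s) hE.le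
    obtain ⟨h5, h6⟩ := h1 s hs hGs r hr hrT (by nlinarith)
    have h7 : W (s + r) ≤ 2 * Real.exp (b₀ * T) * W s := by
      refine h6.trans ?_
      have := mul_le_mul_of_nonneg_right h3 (hW s)
      nlinarith
    refine ⟨h5, h7, h7.trans ?_⟩
    rw [← hδ₁']
    exact mul_le_mul_of_nonneg_left hWs (by positivity)
  have hn : ∀ n : ℕ, Real.exp (b * R (n * T)) * W 0 ≤ δ₁ → G (n * T) ∧
      W (n * T) ≤ Real.exp (b * R (n * T)) * W 0 := by
    intro n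
    induction n with
    | zero => intro _; simp [hG, hR0]
    | succ n ih =>
      intro h3
      have e1 : ((n + 1 : ℕ) : ℝ) * T = n * T + T := by push_cast; ring
      rw [e1] at h3 ⊢
      have h4 : Real.exp (b * R (n * T)) * W 0 ≤ δ₁ := by
        refine le_trans ?_ h3
        refine mul_le_mul_of_nonneg_right (Real.exp_le_exp.2 ?_) (hW 0)
        exact mul_le_mul_of_nonneg_left (hm _ _ (by linarith)) hb
      obtain ⟨h5, h6⟩ := ih h4
      have h7 : 0 ≤ (n : ℝ) * T := by positivity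
      have h8 := hs1 _ h7 h5 (h6.trans h4)
      have h9 := h2 _ h7 fun r hr hrT => ⟨(h8 r hr hrT).1, (h8 r hr hrT).2.2⟩
      refine ⟨(h8 T hT.le le_rfl).1, h9.trans ?_⟩
      have e4 : Real.exp (b * R (n * T + T)) =
          Real.exp (b * (R (n * T + T) - R (n * T))) * Real.exp (b * R (n * T)) := by
        rw [← Real.exp_add]; congr 1; ring
      rw [e4, mul_assoc]
      exact mul_le_mul_of_nonneg_left h6 (Real.exp_pos _).le
  intro s hs hsm
  set n : ℕ := ⌊s / T⌋₊ with hndef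
  have hq : 0 ≤ s / T := div_nonneg hs hT.le
  have h3 : (n : ℝ) * T ≤ s := by
    have := Nat.floor_le hq
    rwa [← hndef, le_div_iff₀ hT] at this
  have h4 : s < (n : ℝ) * T + T := by
    have := Nat.lt_floor_add_one (s / T)
    rw [← hndef, div_lt_iff₀ hT] at this
    linarith
  have hnT : 0 ≤ (n : ℝ) * T := by positivity
  have h5 : Real.exp (b * R (n * T)) * W 0 ≤ Real.exp (b * R s) * W 0 :=
    mul_le_mul_of_nonneg_right (Real.exp_le_exp.2 (mul_le_mul_of_nonneg_left (hm _ _ h3) hb)) (hW 0)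
  obtain ⟨h6, h7⟩ := hn n (h5.trans hsm)
  obtain ⟨h8, h9, -⟩ := hs1 _ hnT h6 (h7.trans (h5.trans hsm)) (s - n * T) (by linarith)
    (by linarith)
  rw [add_sub_cancel] at h8 h9
  refine ⟨h8, h9.trans ?_⟩
  exact mul_le_mul_of_nonneg_left (h7.trans h5) (by positivity)

/-! ### the block -/

/-- **the block estimate**: `ε` depends only on the constants, not on the clock -/
theorem exists_block_clk {E : Type*} [NormedAddCommGroup E] [InnerProductSpace ℝ E]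
    [FiniteDimensional ℝ E] {K₀ T a b sl c₀ : ℝ} (hT : 0 < T) (hsl : 0 < sl) (hc₀ : 0 < c₀) :
    ∃ ε : ℝ, 0 < ε ∧ ∀ (σ : ℝ) (A D : ℝ → E →L[ℝ] E) (w : ℝ → E), c₀ * T ≤ σ →
    (∀ s, ‖A s‖ ≤ K₀) → (∀ s u v, inner ℝ (A s u) v = inner ℝ u (A s v)) →
    (∀ s, HasDerivAt D (A s ∘L D s) s) → D 0 = ContinuousLinearMap.id ℝ E →
    (∀ v, Real.exp ((a + sl) * σ) * ‖v‖ ≤ ‖D T v‖) →
    (∀ v, ‖D T v‖ ≤ Real.exp ((b - sl) * σ) * ‖v‖) →
    (∀ s ∈ Icc (0 : ℝ) T, ∃ w', HasDerivAt w w' s ∧ ‖w' + A s (w s)‖ ≤ ε * ‖w s‖) →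
    ‖w T‖ ≤ Real.exp (-(a * σ)) * ‖w 0‖ ∧ ‖w 0‖ ≤ Real.exp (b * σ) * ‖w T‖ := by
  obtain ⟨ε, h0, h1, h2, h3⟩ := Vale.Agent.P207.H517.exists_eps
    (K := T * Real.exp ((2 * K₀ + 1) * T)) (a := 0) (a₁ := sl * c₀) (b₁ := 0) (b := sl * c₀) hT
    (by positivity) (by positivity)
  rw [zero_mul, Real.exp_zero] at h3
  rw [zero_mul, neg_zero, Real.exp_zero] at h2
  refine ⟨ε, h0, fun σ A D w hσ hA hsym hD hD0 hlo hhi hw => ?_⟩
  set K : ℝ := T * Real.exp ((2 * K₀ + 1) * T) with hK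
  have e1 : (a + sl) * σ / T * T = (a + sl) * σ := by field_simp
  have e2 : (b - sl) * σ / T * T = (b - sl) * σ := by field_simp
  obtain ⟨h4, h5⟩ := Vale.Agent.P207.H517.block (a₁ := (a + sl) * σ / T) (b₁ := (b - sl) * σ / T)
    hT.le h0.le h1 hA hsym hD hD0 (fun v => by rw [e1]; exact hlo v)
    (fun v => by rw [e2]; exact hhi v) hw
  rw [e1, ← hK] at h4
  rw [e2, ← hK] at h5
  have hexp : Real.exp (sl * c₀ * T) ≤ Real.exp (sl * σ) := Real.exp_le_exp.2 (by nlinarith)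
  have hpos := Real.exp_pos (sl * c₀ * T)
  have hK1 : 0 < 1 - ε * K := by
    by_contra h
    push Not at h
    nlinarith
  constructor
  · refine h4.trans (mul_le_mul_of_nonneg_right ?_ (norm_nonneg _))
    have h6 : Real.exp (-((a + sl) * σ)) = Real.exp (-(sl * σ)) * Real.exp (-(a * σ)) := by
      rw [← Real.exp_add]; congr 1; ring
    have h7 : Real.exp (-(sl * σ)) ≤ Real.exp (-(sl * c₀ * T)) :=
      Real.exp_le_exp.2 (by nlinarith)
    have hK0 : 0 ≤ K := by positivity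
    calc (1 + ε * K) * Real.exp (-((a + sl) * σ))
        = (1 + ε * K) * Real.exp (-(sl * σ)) * Real.exp (-(a * σ)) := by rw [h6]; ring
      _ ≤ (1 + ε * K) * Real.exp (-(sl * c₀ * T)) * Real.exp (-(a * σ)) := by gcongr
      _ ≤ 1 * Real.exp (-(a * σ)) := mul_le_mul_of_nonneg_right h2 (Real.exp_pos _).le
      _ = _ := one_mul _
  · have h6 : Real.exp (b * σ) = Real.exp (sl * σ) * Real.exp ((b - sl) * σ) := by
      rw [← Real.exp_add]; congr 1; ring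
    calc ‖w 0‖ = 1 * ‖w 0‖ := (one_mul _).symm
      _ ≤ (1 - ε * K) * Real.exp (sl * c₀ * T) * ‖w 0‖ :=
          mul_le_mul_of_nonneg_right h3 (norm_nonneg _)
      _ ≤ (1 - ε * K) * Real.exp (sl * σ) * ‖w 0‖ := by gcongr
      _ = Real.exp (sl * σ) * ((1 - ε * K) * ‖w 0‖) := by ring
      _ ≤ Real.exp (sl * σ) * (Real.exp ((b - sl) * σ) * ‖w T‖) :=
          mul_le_mul_of_nonneg_left h5 (Real.exp_pos _).le
      _ = _ := by rw [h6]; ring

variable [Dim]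

open Vale.Agent.P207.N4.H76 (pk tl e0 sg)
open Vale.Agent.P207.N4.H722 (GeoIn)
open Vale.Agent.P207.N4.H77 (Dt)

variable {Γ X B : Type} [Group Γ] [MetricSpace X] [ProperSpace X] [MulAction Γ X]
  [IsIsometricSMul Γ X] [TopologicalSpace B] [CompactSpace B] [T2Space B] [MulAction Γ B]
  [ContinuousConstSMul Γ B] {L : Leaf Γ X B} {V : Type} [NormedAddCommGroup V] [NormedSpace ℝ V]
  [FiniteDimensional ℝ V]

/-- one block -/
theorem exists_blk {I : GeoIn L V} (M : Metr L) (hV : VecODE I M.U) {c : X → ℝ} {c₀ c₁ : ℝ}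
    (hO : Clock.Ok L c c₀ c₁) {T a b sl : ℝ} (hT : 0 < T) (hsl : 0 < sl)
    (hlo : ∀ x v, Real.exp ((a + sl) * Clock.sg L c T x) * ‖v‖ ≤ ‖Dt L T x v‖)
    (hhi : ∀ x v, ‖Dt L T x v‖ ≤ Real.exp ((b - sl) * Clock.sg L c T x) * ‖v‖) :
    ∃ δ : ℝ, 0 < δ ∧ δ ≤ 1 ∧ ∀ (x : X) (ξ : B),
      (∀ s, 0 ≤ s → s ≤ T → 0 < ca I (L.φ s x) ξ ∧ ‖tl (kap I (L.φ s x) ξ)‖ ≤ δ) →
      ‖tl (kap I (L.φ T x) ξ)‖ ≤ Real.exp (-(a * Clock.sg L c T x)) * ‖tl (kap I x ξ)‖ ∧
        ‖tl (kap I x ξ)‖ ≤ Real.exp (b * Clock.sg L c T x) * ‖tl (kap I (L.φ T x) ξ)‖ := by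
  obtain ⟨K₀, hK₀⟩ := U_norm M
  obtain ⟨ε, hε, hblk⟩ := exists_block_clk (E := E2) (K₀ := K₀) (a := a) (b := b) hT hsl hO.pos
  obtain ⟨δ, hδ, hode⟩ := hV ε hε
  refine ⟨min δ 1, lt_min hδ one_pos, min_le_right _ _, fun x ξ h => ?_⟩
  have h1 := hblk (Clock.sg L c T x) (fun s => M.U (L.φ s x)) (fun s => Dt L s x)
    (fun s => tl (kap I (L.φ s x) ξ)) (Clock.sg_lo hO hT.le x)
    (fun s => hK₀ _) (fun s u v => M.U_symm _ u v)
    (fun s => H547.RatD.hasDerivAt_Dt M x s) (by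
      ext v
      simp [Vale.Agent.P207.N4.H77.Dt_zero])
    (fun v => hlo x v) (fun v => hhi x v)
    (fun s hs => hode x ξ s (h s hs.1 hs.2).1 ((h s hs.1 hs.2).2.trans (min_le_left _ _)))
  simpa only [L.φ_zero] using h1

section main

variable {I : GeoIn L V} {Gam : V → V →L[ℝ] V →L[ℝ] V}

/-- **the rate of the angle, forward** -/
theorem tl_rate_clk (M : Metr L) (hC : Cov I M.U Gam) (hV : VecODE I M.U) {c : X → ℝ} {c₀ c₁ : ℝ}
    (hO : Clock.Ok L c c₀ c₁) {a₀ b₀ : ℝ}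
    (ha₀ : 0 < a₀) (h₀lo : ∀ x v, a₀ * ‖v‖ ^ 2 ≤ inner ℝ (M.U x v) v)
    (h₀hi : ∀ x v, inner ℝ (M.U x v) v ≤ b₀ * ‖v‖ ^ 2) {T a b sl : ℝ} (hT : 0 < T)
    (ha0 : 0 ≤ a) (hb0 : 0 ≤ b) (hsl : 0 < sl)
    (hlo : ∀ x v, Real.exp ((a + sl) * Clock.sg L c T x) * ‖v‖ ≤ ‖Dt L T x v‖)
    (hhi : ∀ x v, ‖Dt L T x v‖ ≤ Real.exp ((b - sl) * Clock.sg L c T x) * ‖v‖) :
    ∃ C : ℝ, 1 ≤ C ∧ ∀ (x : X) (ξ : B), 0 < ca I x ξ → ∀ s, 0 ≤ s →
      0 < ca I (L.φ s x) ξ ∧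
      ‖tl (kap I (L.φ s x) ξ)‖ ≤ C * Real.exp (-(a * Clock.sg L c s x)) * ‖tl (kap I x ξ)‖ ∧
      ‖tl (kap I x ξ)‖ ≤ C * Real.exp (b * Clock.sg L c s x) * ‖tl (kap I (L.φ s x) ξ)‖ := by
  obtain ⟨δ, hδ, hδ1, hblk⟩ := exists_blk (a := a) (b := b) M hV hO hT hsl hlo hhi
  have hc₁ := hO.c₁_pos
  set β : ℝ := max b₀ 0 with hβ
  have hβ0 : 0 ≤ β := le_max_right _ _
  have hβhi : ∀ x v, inner ℝ (M.U x v) v ≤ β * ‖v‖ ^ 2 := fun x v =>
    (h₀hi x v).trans (mul_le_mul_of_nonneg_right (le_max_left _ _) (sq_nonneg _))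
  -- the crude rates
  have cr : ∀ (x : X) (ξ : B), 0 < ca I x ξ → ∀ s, 0 ≤ s → 0 < ca I (L.φ s x) ξ ∧
      ‖tl (kap I (L.φ s x) ξ)‖ ≤ 2 * Real.exp (-(a₀ * s)) * ‖tl (kap I x ξ)‖ ∧
      ‖tl (kap I x ξ)‖ ≤ 2 * Real.exp (β * s) * ‖tl (kap I (L.φ s x) ξ)‖ :=
    fun x ξ h0 s hs => hC.tl_rate ha₀.le h₀lo hβhi h0 hs
  -- the time after which the angle is small
  obtain ⟨S₀, hS0, hS⟩ : ∃ S₀ : ℝ, 0 ≤ S₀ ∧ ∀ s, S₀ ≤ s → 2 * Real.exp (-(a₀ * s)) ≤ δ := by
    have h1 : Tendsto (fun s : ℝ => 2 * Real.exp (-(a₀ * s))) atTop (𝓝 (2 * 0)) := by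
      refine Tendsto.const_mul _ (Real.tendsto_exp_atBot.comp ?_)
      exact tendsto_neg_atTop_atBot.comp (tendsto_id.const_mul_atTop ha₀)
    rw [mul_zero] at h1
    obtain ⟨S, hS⟩ := (h1.eventually_lt_const hδ).exists_forall_of_atTop
    exact ⟨max S 0, le_max_right _ _, fun s hs => (hS s ((le_max_left _ _).trans hs)).le⟩
  set C₀ : ℝ := 2 * Real.exp (β * (T + S₀)) with hC₀
  have hE : 1 ≤ Real.exp (β * (T + S₀)) := Real.one_le_exp (by positivity)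
  have hC₀1 : 1 ≤ C₀ := by rw [hC₀]; linarith
  have hCa : 1 ≤ Real.exp (a * (c₁ * (T + S₀))) := Real.one_le_exp (by positivity)
  have hCC : 1 ≤ C₀ * C₀ := by nlinarith
  refine ⟨C₀ * C₀ * Real.exp (a * (c₁ * (T + S₀))), by nlinarith, fun x ξ h0 s hs => ?_⟩
  have pos : ∀ s, 0 ≤ s → 0 < ca I (L.φ s x) ξ := fun s hs => (cr x ξ h0 s hs).1
  have h := fwd_clk (W := fun s => ‖tl (kap I (L.φ s x) ξ)‖) (S := fun s => Clock.sg L c s x)
    (a := a) (b := b) (T := T) (S₀ := S₀) (C₀ := C₀) (c₁ := c₁) hT hS0 ha0 hb0 hC₀1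
    (fun s => norm_nonneg _) (Clock.sg_zero x) (fun s t hst => Clock.sg_mono hO x hst)
    (fun s t hst => Clock.sg_sub_hi hO hst x) ?_ ?_ s hs
  · simp only [L.φ_zero] at h
    refine ⟨pos s hs, h.1, h.2.trans ?_⟩
    have h3 : C₀ * C₀ * Real.exp (b * Clock.sg L c s x) ≤
        C₀ * C₀ * Real.exp (a * (c₁ * (T + S₀))) * Real.exp (b * Clock.sg L c s x) := by
      refine mul_le_mul_of_nonneg_right ?_ (Real.exp_pos _).le
      exact le_mul_of_one_le_right (by linarith) hCa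
    exact mul_le_mul_of_nonneg_right h3 (norm_nonneg _)
  · intro r hr
    have hr0 : 0 ≤ r := hS0.trans hr
    have h3 := hblk (L.φ r x) ξ fun q hq hqT => by
      rw [← L.φ_add]
      refine ⟨pos _ (by linarith), ?_⟩
      have h4 := (cr x ξ h0 (q + r) (by linarith)).2.1
      have h5 := hS (q + r) (by linarith)
      have h6 := tl_le_one I x ξ
      have h7 := norm_nonneg (tl (kap I x ξ))
      calc ‖tl (kap I (L.φ (q + r) x) ξ)‖
          ≤ 2 * Real.exp (-(a₀ * (q + r))) * ‖tl (kap I x ξ)‖ := h4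
        _ ≤ δ * 1 := mul_le_mul h5 h6 h7 hδ.le
        _ = δ := mul_one δ
    have h8 : Clock.sg L c T (L.φ r x) = Clock.sg L c (r + T) x - Clock.sg L c r x := by
      rw [Clock.sg_sub hO.cont, add_sub_cancel_left]
    rw [← L.φ_add, add_comm T r, h8] at h3
    exact h3
  · intro r hr q hq hqT
    obtain ⟨-, h4, h5⟩ := cr (L.φ r x) ξ (pos r hr) q hq
    rw [← L.φ_add, add_comm q r] at h4 h5
    constructor
    · refine h4.trans (mul_le_mul_of_nonneg_right ?_ (norm_nonneg _))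
      have h6 : Real.exp (-(a₀ * q)) ≤ 1 := Real.exp_le_one_iff.2 (by nlinarith)
      rw [hC₀]
      linarith
    · refine h5.trans (mul_le_mul_of_nonneg_right ?_ (norm_nonneg _))
      rw [hC₀]
      have : Real.exp (β * q) ≤ Real.exp (β * (T + S₀)) :=
        Real.exp_le_exp.2 (mul_le_mul_of_nonneg_left hqT hβ0)
      linarith

/-- **the rate of the angle, backward** -/
theorem tl_back_clk (M : Metr L) (hC : Cov I M.U Gam) (hV : VecODE I M.U) {c : X → ℝ} {c₀ c₁ : ℝ}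
    (hO : Clock.Ok L c c₀ c₁) {b₀ : ℝ}
    (h₀hi : ∀ x v, inner ℝ (M.U x v) v ≤ b₀ * ‖v‖ ^ 2) {T a b sl : ℝ} (hT : 0 < T)
    (hb0 : 0 ≤ b) (hsl : 0 < sl)
    (hlo : ∀ x v, Real.exp ((a + sl) * Clock.sg L c T x) * ‖v‖ ≤ ‖Dt L T x v‖)
    (hhi : ∀ x v, ‖Dt L T x v‖ ≤ Real.exp ((b - sl) * Clock.sg L c T x) * ‖v‖) :
    ∃ C δ : ℝ, 1 ≤ C ∧ 0 < δ ∧ ∀ (x : X) (ξ : B), 0 < ca I x ξ → ∀ s, 0 ≤ s →
      Real.exp (b * Clock.sg L c s (L.φ (-s) x)) * ‖tl (kap I x ξ)‖ ≤ δ →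
      0 < ca I (L.φ (-s) x) ξ ∧ ‖tl (kap I (L.φ (-s) x) ξ)‖ ≤
        C * Real.exp (b * Clock.sg L c s (L.φ (-s) x)) * ‖tl (kap I x ξ)‖ := by
  obtain ⟨δ, hδ, hδ1, hblk⟩ := exists_blk (a := a) (b := b) M hV hO hT hsl hlo hhi
  set β : ℝ := max b₀ 0 with hβ
  have hβ0 : 0 ≤ β := le_max_right _ _
  have hβhi : ∀ x v, inner ℝ (M.U x v) v ≤ β * ‖v‖ ^ 2 := fun x v =>
    (h₀hi x v).trans (mul_le_mul_of_nonneg_right (le_max_left _ _) (sq_nonneg _))
  have hE : 1 ≤ Real.exp (β * T) := Real.one_le_exp (by positivity)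
  refine ⟨2 * Real.exp (β * T), δ / (2 * Real.exp (β * T)), by linarith, by positivity,
    fun x ξ h0 s hs hsm => ?_⟩
  have hR : ∀ s, Clock.sg L c s (L.φ (-s) x) = -Clock.sg L c (-s) x := fun s => by
    rw [Clock.sg_neg hO.cont, neg_neg]
  rw [hR] at hsm ⊢
  have h := bwd_clk (W := fun s => ‖tl (kap I (L.φ (-s) x) ξ)‖)
    (R := fun s => -Clock.sg L c (-s) x)
    (G := fun s => 0 < ca I (L.φ (-s) x) ξ) (b := b) (b₀ := β) (T := T) (δ := δ) hT hb0 hβ0 hδ hδ1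
    (fun s => norm_nonneg _) (by simp)
    (fun s t hst => neg_le_neg (Clock.sg_mono hO x (neg_le_neg hst))) ?_ ?_
    (by simpa [L.φ_zero] using h0) s hs (by simpa [L.φ_zero] using hsm)
  · refine ⟨h.1, h.2.trans (le_of_eq ?_)⟩
    simp only [neg_zero, L.φ_zero]
    ring
  · intro r hr hG q hq hqT hsmall
    have h3 := tl_back hC hβ0 hβhi hG hq hsmall
    rw [← L.φ_add, show -q + -r = -(r + q) by ring] at h3
    exact h3
  · intro r hr hall
    have h3 := (hblk (L.φ (-(r + T)) x) ξ fun q hq hqT => by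
      rw [← L.φ_add, show q + -(r + T) = -(r + (T - q)) by ring]
      exact hall (T - q) (by linarith) (by linarith)).2
    have h8 : Clock.sg L c T (L.φ (-(r + T)) x) =
        -Clock.sg L c (-(r + T)) x - -Clock.sg L c (-r) x := by
      have h9 := Clock.sg_sub (L := L) hO.cont (-(r + T)) (-r) x
      rw [show -r - -(r + T) = T by ring] at h9
      rw [← h9]
      ring
    rw [← L.φ_add, show T + -(r + T) = -r by ring, h8] at h3
    exact h3

end main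

end Vale.Agent.P207.N4.H106.AngC
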