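import Vale.Agent.P207.N4.H751.ZI1

/-!
# P207, line N4: compactness and density for the zoom data (fields `cpt` and `dense`)
-/

open Set Filter Topology Metric
open scoped ContDiff

noncomputable section

namespace Vale.Agent.P207.N4.H106

open Vale.Agent.P207.N3 Vale.Agent.P207.N3.Ten Vale.Agent.P207.N4.Ten Vale.Agent.P207.H751
  Vale.Agent.P207.N4.H751

variable [Dim]

variable {Γ X B : Type} [Group Γ] [MetricSpace X] [ProperSpace X] [MulAction Γ X]
  [IsIsometricSMul Γ X] [TopologicalSpace B] [CompactSpace B] [T2Space B] [MulAction Γ B]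
  [ContinuousConstSMul Γ B] {L : Leaf Γ X B} (a : AffIn L) (T : Tens L)

/-- the tensor depends continuously on the frame, uniformly on the unit disc -/
theorem Nf_unif {u : ℕ → X} {w : X} (g : ℕ → Γ)
    (h : Tendsto (fun n => g n • u n) atTop (𝓝 w)) :
    TendstoUniformlyOn (fun n => a.Nf T (u n)) (a.Nf T w) atTop (ball 0 1) := by
  intro V hV
  have hk : IsCompact (closedBall (0 : E2) 1) := isCompact_closedBall 0 1
  have hsub : closedBall (0 : E2) 1 ⊆ ball 0 2 := closedBall_subset_ball (by norm_num)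
  have hf : ContinuousOn (Function.uncurry (a.Nf T)) ((univ : Set X) ×ˢ closedBall (0 : E2) 1) :=
    (a.Nf_cont T).mono (prod_mono subset_rfl hsub)
  obtain ⟨V', hV', hsymm, hVV⟩ := symm_of_uniformity hV
  obtain ⟨U, hU, hUk⟩ := hk.mem_uniformity_of_prod hf (mem_univ w) hV'
  rw [nhdsWithin_univ] at hU
  filter_upwards [h.eventually hU] with n hn x hx
  have hx1 : x ∈ closedBall (0 : E2) 1 := ball_subset_closedBall hx
  have h1 := hUk _ hn x hx1
  rw [a.Nf_smul T (g n) (u n) (hsub hx1)] at h1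
  exact hVV (hsymm.symm _ _ h1)

/-- **compactness** -/
theorem cpt (v : ℕ → X) : ∃ w, ∃ ψ : ℕ → ℕ, StrictMono ψ ∧
    TendstoUniformlyOn (fun n => a.Nf T (v (ψ n))) (a.Nf T w) atTop (ball 0 1) := by
  obtain ⟨K, hK, hKg⟩ := L.cocompact
  choose g hg using fun n => hKg (v n)
  obtain ⟨w, -, ψ, hψ, hw⟩ := hK.tendsto_subseq (x := fun n => g n • v n) hg
  exact ⟨w, ψ, hψ, Nf_unif a T (fun n => g (ψ n)) hw⟩

/-- **density** -/
theorem dense (v : X) (O : Set E2) (hO : IsOpen O) (hO1 : O ⊆ ball 0 1) (hne : O.Nonempty)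
    (w : X) : ∃ (p : ℕ → E2) (u : ℕ → X) (n : ℕ → ℕ) (w' : ℕ → X), (∀ i, p i ∈ O) ∧
      (∀ i, L.em (u i) = L.em v ∧ |L.lv (u i) - L.lv v| ≤ 1 ∧ L.ep (u i) = a.pt v (p i)) ∧
      (∀ i, w' i = L.φ (n i) (u i)) ∧ Tendsto n atTop atTop ∧
      TendstoUniformlyOn (fun i => a.Nf T (w' i)) (a.Nf T w) atTop (ball 0 1) := by
  -- the open set of the disc
  set V : Set E2 := ball (0 : E2) 3 ∩ (fun u => a.ac v (L.e v u)) ⁻¹' O with hV
  have hcont : ContinuousOn (fun u => a.ac v (L.e v u)) (ball (0 : E2) 3) := by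
    have h1 : ContinuousOn (fun u : E2 => ((v, L.e v u) : X × B)) (ball (0 : E2) 3) := by
      refine continuousOn_const.prodMk ?_
      exact L.e_cont.comp (f := fun u : E2 => ((v, u) : X × E2))
        (continuous_const.prodMk continuous_id).continuousOn
        fun u hu => ⟨mem_univ _, ball_subset_closedBall hu⟩
    exact a.ac_cont.comp h1 fun u hu => L.e_ne v u (ball_subset_closedBall hu)
  have hVo : IsOpen V := hcont.isOpen_inter_preimage isOpen_ball hO
  have hVne : V.Nonempty := by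
    obtain ⟨p, hp⟩ := hne
    have hp2 : p ∈ ball (0 : E2) 2 := ball_subset_ball (by norm_num) (hO1 hp)
    refine ⟨a.chi v p, a.chi_mem v p hp2, ?_⟩
    show a.ac v (L.e v (a.chi v p)) ∈ O
    rw [a.e_chi v p hp2, a.ac_pt]
    exact hp
  choose g y hy1 hy2 hy3 hy4 using fun i : ℕ =>
    L.dense_leaf v V hVo inter_subset_left hVne (L.lv v + i) (ball w (1 / ((i : ℝ) + 1)))
      isOpen_ball ⟨w, mem_ball_self (by positivity)⟩
  set n : ℕ → ℕ := fun i => ⌊L.lv (y i) - L.lv v⌋₊ with hn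
  set u : ℕ → X := fun i => L.φ (-(n i : ℝ)) (y i) with hu
  have hpt : ∀ i, a.ac v (L.ep (y i)) ∈ O := by
    intro i
    obtain ⟨q, hq, hq2⟩ := hy2 i
    rw [← hq2]
    exact hq.2
  have hlv : ∀ i, 0 ≤ L.lv (y i) - L.lv v := by
    intro i
    have := hy3 i
    have h0 : (0 : ℝ) ≤ i := Nat.cast_nonneg i
    linarith
  refine ⟨fun i => a.ac v (L.ep (y i)), u, n, y, hpt, fun i => ⟨?_, ?_, ?_⟩, fun i => ?_, ?_, ?_⟩
  · rw [hu]
    show L.em (L.φ _ _) = _
    rw [L.em_φ, hy1]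
  · show |L.lv (L.φ _ _) - L.lv v| ≤ 1
    rw [L.lv_φ]
    have h1 := Nat.floor_le (hlv i)
    have h2 := Nat.lt_floor_add_one (L.lv (y i) - L.lv v)
    rw [abs_le]
    constructor
    · show -1 ≤ L.lv (y i) + -(⌊L.lv (y i) - L.lv v⌋₊ : ℝ) - L.lv v
      linarith
    · show L.lv (y i) + -(⌊L.lv (y i) - L.lv v⌋₊ : ℝ) - L.lv v ≤ 1
      linarith
  · show L.ep (L.φ _ _) = _
    rw [ep_φ, a.pt_ac]
    rw [← hy1 i]
    exact (L.em_ne_ep (y i)).symm
  · show y i = L.φ (n i) (L.φ (-(n i : ℝ)) (y i))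
    rw [← L.φ_add, add_neg_cancel, L.φ_zero]
  · refine tendsto_atTop_mono (fun i => ?_) tendsto_id
    refine Nat.le_floor ?_
    have := hy3 i
    show (i : ℝ) ≤ L.lv (y i) - L.lv v
    linarith
  · refine Nf_unif a T g ?_
    rw [tendsto_iff_dist_tendsto_zero]
    refine squeeze_zero (fun _ => dist_nonneg) (fun i => (mem_ball.1 (hy4 i)).le) ?_
    exact tendsto_one_div_add_atTop_nhds_zero_nat

end Vale.Agent.P207.N4.H106
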